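import Vale.Agent.P258.R2.H863.Spec

/-! # P258: ROW B (free actions, centralizers of 4-cycles, counting homomorphisms) -/

namespace Vale.Agent.P258.R2.H411

open Vale.Agent.P258.R2.H863

theorem free_dvd : SpecFree := by
  classical
  intro H X _ _ _ _ hfree
  have := Fintype.ofFinite H
  have := Fintype.ofFinite X
  have hst : ∀ x : X, MulAction.stabilizer H x = ⊥ := fun x => by
    rw [eq_bot_iff]
    intro h hh
    exact hfree x h hh
  have e := MulAction.selfEquivSigmaOrbitsQuotientStabilizer H X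
  have e2 : (Σ ω : Quotient (MulAction.orbitRel H X), H ⧸ MulAction.stabilizer H ω.out) ≃
      Quotient (MulAction.orbitRel H X) × H :=
    (Equiv.sigmaCongrRight fun ω =>
      ((Quotient.congrRight fun a b => by rw [hst ω.out]).trans
        (QuotientGroup.quotientBot (G := H)).toEquiv)).trans (Equiv.sigmaEquivProd _ _)
  rw [Nat.card_congr (e.trans e2), Nat.card_prod]
  exact dvd_mul_left _ _

theorem cent_aux1 : ∀ c y : Equiv.Perm (Fin 4), c ^ 4 = 1 → c ^ 2 ≠ 1 → y * c = c * y →
    y = 1 ∨ y = c ∨ y = c⁻¹ ∨ y = c ^ 2 := by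
  decide +kernel

theorem cent_aux2 : ∀ c d : Equiv.Perm (Fin 4), c ^ 4 = 1 → c ^ 2 ≠ 1 → d ^ 4 = 1 → d ^ 2 ≠ 1 →
    c ^ 2 * d = d * c ^ 2 → d = c ∨ d = c⁻¹ := by
  decide +kernel

theorem cent : SpecCent := by
  intro c d y hc hd h1 h2 h3 h4
  rcases cent_aux1 c y hc.1 hc.2 h3 with h | h | h | h
  · exact h
  · exfalso
    rw [h] at h4
    rcases cent_aux2 c d hc.1 hc.2 hd.1 hd.2 (by
      rw [pow_two, mul_assoc, h4, ← mul_assoc, h4, mul_assoc]) with h | h
    · exact h1 h
    · exact h2 h
  · exfalso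
    rw [h] at h4
    have h5 : c * d = d * c := by
      have h6 : c * (c⁻¹ * d) * c = c * (d * c⁻¹) * c := by rw [h4]
      simpa [mul_assoc] using h6.symm
    rcases cent_aux2 c d hc.1 hc.2 hd.1 hd.2 (by
      rw [pow_two, mul_assoc, h5, ← mul_assoc, h5, mul_assoc]) with h | h
    · exact h1 h
    · exact h2 h
  · exfalso
    rw [h] at h4
    rcases cent_aux2 c d hc.1 hc.2 hd.1 hd.2 h4 with h | h
    · exact h1 h
    · exact h2 h

theorem count : SpecCount := by
  classical
  intro Γ G _ _ _ det _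
  have e : {f : Γ →* G // ¬ ∃ x, det (f x) ≠ 1} ≃ (Γ →* det.ker) :=
    { toFun := fun f => f.1.codRestrict det.ker (fun x => by
        have := f.2
        push Not at this
        exact this x)
      invFun := fun g => ⟨det.ker.subtype.comp g, by
        push Not
        exact fun x => (g x).2⟩
      left_inv := fun f => Subtype.ext (MonoidHom.ext fun x => rfl)
      right_inv := fun g => MonoidHom.ext fun x => Subtype.ext rfl }
  rw [← Nat.card_congr e, ← Nat.card_sum]
  exact Nat.card_congr (Equiv.sumCompl _).symm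

end Vale.Agent.P258.R2.H411
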